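import Mathlib
import Vale.Agent.H17.FK.Defs
import Vale.Agent.H17.FK.JDefs
import Vale.Agent.H17.FK.JDeg

/-!
P063 (Friedgut-Kalai threshold width): properties monotone in the `j`-degrees.

For `1 ≤ j < r < n`, `0 < ε < 1/2` and a nonempty family `P` of `r`-uniform hypergraphs on `[n]`
that is monotone in the `j`-degrees (if `x ∈ P` and every `j`-set lies in at least as many edges
of `y` as of `x`, then `y ∈ P`; `j = 1`: vertex degrees, `j = r - 1`: codegrees): `P` is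
increasing, the thresholds `p_ε(P)` and `p_{1-ε}(P)` are attained in `[0, 1]`, and
`w_ε(P) ≤ 4 sqrt (log (2 choose(n,j) / ε) / choose (n-j) (r-j))`,
`w_ε(P) ≤ 512 r (2/ε)^(1/4) / (log n)^2` and `w_ε(P) ≤ 512 r (2/ε)^(1/4) (log n)^(-r/(r-1))`.
-/

namespace Vale.Agent.Results.P063.B_JDegreeMonotone

open Vale.Agent.H17.FK

theorem result :
    ∀ (n r j : ℕ), 1 ≤ j → j < r → r < n → ∀ ε : ℝ, 0 < ε → ε < 1 / 2 →
      ∀ P : Finset (Finset (HEdge n r)), P.Nonempty → JDegMono n r j P →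
        (∀ x ∈ P, ∀ y : Finset (HEdge n r), x ⊆ y → y ∈ P) ∧
        ((0 ≤ pThr n r ε P ∧ pThr n r ε P ≤ 1 ∧ ε ≤ mu n r (pThr n r ε P) P) ∧
          (0 ≤ pThr n r (1 - ε) P ∧ pThr n r (1 - ε) P ≤ 1 ∧
            1 - ε ≤ mu n r (pThr n r (1 - ε) P) P)) ∧
        width n r ε P ≤
          4 * Real.sqrt (Real.log (2 * (Nat.choose n j : ℝ) / ε) /
            (Nat.choose (n - j) (r - j) : ℝ)) ∧
        width n r ε P ≤ 512 * (r : ℝ) * (2 / ε) ^ ((1 : ℝ) / 4) / (Real.log (n : ℝ)) ^ 2 ∧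
        width n r ε P ≤ 512 * (r : ℝ) * (2 / ε) ^ ((1 : ℝ) / 4) *
          (Real.log (n : ℝ)) ^ (-((r : ℝ) / ((r : ℝ) - 1))) := by
  intro n r j hj hjr hrn ε hε hε2 P hP hmono
  exact fk_core_j n r j hj hjr hrn ε hε hε2 P hP hmono

end Vale.Agent.Results.P063.B_JDegreeMonotone
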