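import Mathlib
import Vale.Agent.H17.FK.Defs
import Vale.Agent.H17.FK.JDefs
import Vale.Agent.Results.P063.A_DegreeMonotone
import Vale.Agent.Results.P063.B_JDegreeMonotone

/-!
P063 (Friedgut-Kalai threshold width): degree-monotone and `j`-degree-monotone properties in
one statement.

(1) The statement of `A_DegreeMonotone`: for `2 ≤ r < n`, `0 < ε < 1/2` and a nonempty family
`P` of `r`-uniform hypergraphs on `[n]` that is monotone in the vertex degrees, `P` is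
increasing, the thresholds `p_ε(P)` and `p_{1-ε}(P)` are attained in `[0, 1]`, and
`w_ε(P) ≤ 4 sqrt (log (2 n / ε) / choose (n-1) (r-1))`,
`w_ε(P) ≤ 512 (2/ε)^(1/4) / (log n)^2`, `w_ε(P) ≤ 512 (2/ε)^(1/4) (log n)^(-r/(r-1))`.

(2) The statement of `B_JDegreeMonotone`: for `1 ≤ j < r < n`, `0 < ε < 1/2` and a nonempty
family `P` that is monotone in the `j`-degrees, the same conclusions with
`w_ε(P) ≤ 4 sqrt (log (2 choose(n,j) / ε) / choose (n-j) (r-j))`,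
`w_ε(P) ≤ 512 r (2/ε)^(1/4) / (log n)^2`, `w_ε(P) ≤ 512 r (2/ε)^(1/4) (log n)^(-r/(r-1))`.
-/

namespace Vale.Agent.Results.P063.C_DegreeAndJDegree

open Vale.Agent.H17.FK

theorem result :
    (∀ (n r : ℕ), 2 ≤ r → r < n → ∀ ε : ℝ, 0 < ε → ε < 1 / 2 →
      ∀ P : Finset (Finset (HEdge n r)), P.Nonempty → DegMono n r P →
        (∀ x ∈ P, ∀ y : Finset (HEdge n r), x ⊆ y → y ∈ P) ∧
        ((0 ≤ pThr n r ε P ∧ pThr n r ε P ≤ 1 ∧ ε ≤ mu n r (pThr n r ε P) P) ∧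
          (0 ≤ pThr n r (1 - ε) P ∧ pThr n r (1 - ε) P ≤ 1 ∧
            1 - ε ≤ mu n r (pThr n r (1 - ε) P) P)) ∧
        width n r ε P ≤
          4 * Real.sqrt (Real.log (2 * (n : ℝ) / ε) / (Nat.choose (n - 1) (r - 1) : ℝ)) ∧
        width n r ε P ≤ 512 * (2 / ε) ^ ((1 : ℝ) / 4) / (Real.log (n : ℝ)) ^ 2 ∧
        width n r ε P ≤ 512 * (2 / ε) ^ ((1 : ℝ) / 4) *
          (Real.log (n : ℝ)) ^ (-((r : ℝ) / ((r : ℝ) - 1)))) ∧
    (∀ (n r j : ℕ), 1 ≤ j → j < r → r < n → ∀ ε : ℝ, 0 < ε → ε < 1 / 2 →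
      ∀ P : Finset (Finset (HEdge n r)), P.Nonempty → JDegMono n r j P →
        (∀ x ∈ P, ∀ y : Finset (HEdge n r), x ⊆ y → y ∈ P) ∧
        ((0 ≤ pThr n r ε P ∧ pThr n r ε P ≤ 1 ∧ ε ≤ mu n r (pThr n r ε P) P) ∧
          (0 ≤ pThr n r (1 - ε) P ∧ pThr n r (1 - ε) P ≤ 1 ∧
            1 - ε ≤ mu n r (pThr n r (1 - ε) P) P)) ∧
        width n r ε P ≤
          4 * Real.sqrt (Real.log (2 * (Nat.choose n j : ℝ) / ε) /
            (Nat.choose (n - j) (r - j) : ℝ)) ∧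
        width n r ε P ≤ 512 * (r : ℝ) * (2 / ε) ^ ((1 : ℝ) / 4) / (Real.log (n : ℝ)) ^ 2 ∧
        width n r ε P ≤ 512 * (r : ℝ) * (2 / ε) ^ ((1 : ℝ) / 4) *
          (Real.log (n : ℝ)) ^ (-((r : ℝ) / ((r : ℝ) - 1)))) :=
  ⟨Vale.Agent.Results.P063.A_DegreeMonotone.result,
    Vale.Agent.Results.P063.B_JDegreeMonotone.result⟩

end Vale.Agent.Results.P063.C_DegreeAndJDegree
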